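import Vale.Agent.P228.Coarse
import Vale.Agent.P228.Reduce

namespace Vale.Agent.Results.P228.A_full

theorem result (n p : ℕ) [Fact p.Prime] (M : Type*) [TopologicalSpace M] [T2Space M]
    [ConnectedSpace M] [ChartedSpace (EuclideanSpace ℝ (Fin n)) M] [AddAction ℤ_[p] M]
    [ContinuousVAdd ℤ_[p] M] : ¬ FaithfulVAdd ℤ_[p] M := by
  intro h
  obtain ⟨σ⟩ := Vale.Agent.P228.exists_setup (n := n) (p := p) (M := M)
  exact σ.false

end Vale.Agent.Results.P228.A_full
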